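import Vale.Agent.Lib.P237.Mono

/-!
# P237 (Petty's projection-volume conjecture): convex bodies close to products

For `K ⊆ ℝ^n` (real functions on a finite index type), `shadow K u = vol (K + [0,u]) - vol K`,
`projBody K` is the set with support function `shadow K`, and
`pettyRatio K = vol (projBody K) / vol K ^ (n - 1)`.  `pettyConst n` is the conjectured minimum
of `pettyRatio` in dimension `n`, its value on ellipsoids.

* `shadow K u` is the length of `u` times the volume of the orthogonal projection of `K` along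
  `u` (stated with an orthogonal matrix that maps `u` to a multiple of the last basis vector).
* If `T ⊆ K` are compact convex then `shadow T ≤ shadow K`, the projection body of `T` is
  contained in that of `K`, and `pettyRatio K` is at least `pettyRatio T` times the power
  `n - 1` of `vol T / vol K`.
* `pettyConst n ≤ 2^n`, strictly for `n ≥ 3`; every member `T` of the family `PlanarProd`
  (Cartesian products of segments and planar compact convex sets) has `pettyRatio T ≥ 2^n`.
* Hence the conjectured inequality holds for every compact convex `K` that contains a member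
  `T` of `PlanarProd` with `pettyConst n * vol K ^ (n-1) ≤ 2^n * vol T ^ (n-1)`; for instance
  for every convex body of `ℝ^3` containing a cylinder of at least `1000/1039` of its volume.
-/

namespace Vale.Agent.Results.P237.NearProducts

open Vale.Agent.Lib.P237

theorem result :
    (∀ (ι : Type) [Fintype ι] [DecidableEq ι] (K : Set (ι ⊕ Unit → ℝ))
      (Q : Matrix (ι ⊕ Unit) (ι ⊕ Unit) ℝ) (u : ι ⊕ Unit → ℝ) (h : ℝ),
      IsCompact K → Convex ℝ K → Q.transpose * Q = 1 → 0 ≤ h →
      Q.mulVec u = (Sum.elim (0 : ι → ℝ) (fun _ => h) : ι ⊕ Unit → ℝ) →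
      shadow K u = h * vol {x : ι → ℝ | ∃ t : ℝ,
        (Sum.elim x (fun _ => t) : ι ⊕ Unit → ℝ) ∈ (fun y => Q.mulVec y) '' K}) ∧
    (∀ (ι : Type) [Fintype ι] [DecidableEq ι] (T K : Set (ι → ℝ)),
      IsCompact T → Convex ℝ T → IsCompact K → Convex ℝ K → T ⊆ K → 0 < vol T →
      (∀ u, shadow T u ≤ shadow K u) ∧ projBody T ⊆ projBody K ∧
      pettyRatio T * (vol T / vol K) ^ (Fintype.card ι - 1) ≤ pettyRatio K) ∧
    ((∀ n : ℕ, pettyConst n ≤ 2 ^ n) ∧ (∀ n : ℕ, 3 ≤ n → pettyConst n < 2 ^ n)) ∧
    (∀ (ι : Type) [Fintype ι] [DecidableEq ι] (T K : Set (ι → ℝ)),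
      PlanarProd T → IsCompact K → Convex ℝ K → T ⊆ K →
      (2:ℝ) ^ Fintype.card ι ≤ pettyRatio T ∧
      (pettyConst (Fintype.card ι) * vol K ^ (Fintype.card ι - 1)
          ≤ 2 ^ Fintype.card ι * vol T ^ (Fintype.card ι - 1) →
        pettyConst (Fintype.card ι) ≤ pettyRatio K)) ∧
    (∀ (A : Set (Fin 2 → ℝ)) (h : ℝ) (K : Set (Fin 2 ⊕ Unit → ℝ)),
      IsCompact A → Convex ℝ A → 0 < vol A → 0 < h → IsCompact K → Convex ℝ K →
      prodSet A (seg h) ⊆ K → vol K ≤ 1039 / 1000 * (vol A * h) →
      pettyConst 3 < pettyRatio K) := by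
  refine ⟨fun ι _ _ K Q u h hKc hK hQ hh hu => shadow_eq_proj hKc hK hQ hh hu, ?_,
    ⟨pettyConst_le_two_pow, fun n hn => pettyConst_lt_two_pow hn⟩, ?_, ?_⟩
  · intro ι _ _ T K hTc hT hKc hK hTK hpos
    exact ⟨fun u => shadow_mono hT hTc hK hKc hTK u, projBody_mono hT hTc hK hKc hTK,
      pettyRatio_mono hT hTc hK hKc hTK hpos⟩
  · intro ι _ _ T K hT hKc hK hTK
    exact ⟨planarProd_two_pow hT, fun hvol => petty_near hT hKc hK hTK hvol⟩
  · intro A h K hAc hA hα hh hKc hK hTK hvol
    exact petty_near_cylinder hAc hA hα hh hKc hK hTK hvol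

end Vale.Agent.Results.P237.NearProducts
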