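import Vale.Agent.Results.P237.AllProducts
import Vale.Agent.Results.P237.NearProducts

/-!
# P237 (Petty's projection-volume conjecture): products and bodies close to products

The conjunction of the statements of the hand-ins `AllProducts` and `NearProducts`:
the identification of `shadow K u` with the length of `u` times the volume of the orthogonal
projection of `K` along `u`; submultiplicativity of the constants `pettyConst`; the passage of the
conjectured inequality to Cartesian products; the inequality on the family `PlanarProd`;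
monotonicity of the projection body under inclusion; and the inequality for every convex body
that contains a member of `PlanarProd` of almost the same volume.
-/

namespace Vale.Agent.Results.P237.AUnion

open Vale.Agent.Lib.P237

theorem result :
    (∀ (ι : Type) [Fintype ι] [DecidableEq ι] (K : Set (ι ⊕ Unit → ℝ))
      (Q : Matrix (ι ⊕ Unit) (ι ⊕ Unit) ℝ) (u : ι ⊕ Unit → ℝ) (h : ℝ),
      IsCompact K → Convex ℝ K → Q.transpose * Q = 1 → 0 ≤ h →
      Q.mulVec u = (Sum.elim (0 : ι → ℝ) (fun _ => h) : ι ⊕ Unit → ℝ) →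
      shadow K u = h * vol {x : ι → ℝ | ∃ t : ℝ,
        (Sum.elim x (fun _ => t) : ι ⊕ Unit → ℝ) ∈ (fun y => Q.mulVec y) '' K}) ∧
    (∀ k l : ℕ, pettyConst (k + l) ≤ pettyConst k * pettyConst l) ∧
    (∀ k l : ℕ, 1 ≤ k → 1 ≤ l → 3 ≤ k + l →
      pettyConst (k + l) < pettyConst k * pettyConst l) ∧
    (pettyConst 1 = 2 ∧ pettyConst 2 = 4 ∧ pettyConst 3 = 3 * Real.pi ^ 2 / 4) ∧
    (∀ n : ℕ, (MeasureTheory.volume
      (Metric.ball (0 : EuclideanSpace ℝ (Fin (n + 1))) 1)).toReal = ballVol (n + 1)) ∧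
    (∀ (ι κ : Type) [Fintype ι] [Fintype κ] [Nonempty ι] [Nonempty κ]
      (A : Set (ι → ℝ)) (B : Set (κ → ℝ)),
      IsCompact A → Convex ℝ A → 0 < vol A → IsCompact B → Convex ℝ B → 0 < vol B →
      pettyConst (Fintype.card ι) ≤ pettyRatio A →
      pettyConst (Fintype.card κ) ≤ pettyRatio B →
      pettyRatio (prodSet A B) = pettyRatio A * pettyRatio B ∧
      pettyConst (Fintype.card ι + Fintype.card κ) ≤ pettyRatio (prodSet A B) ∧
      (3 ≤ Fintype.card ι + Fintype.card κ →
        pettyConst (Fintype.card ι + Fintype.card κ) < pettyRatio (prodSet A B))) ∧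
    (∀ (ι : Type) [Fintype ι] (K : Set (ι → ℝ)), PlanarProd K →
      IsCompact K ∧ Convex ℝ K ∧ 0 < vol K ∧
      pettyConst (Fintype.card ι) ≤ pettyRatio K ∧
      (3 ≤ Fintype.card ι → pettyConst (Fintype.card ι) < pettyRatio K)) ∧
    (∀ (ι : Type) [Fintype ι] [DecidableEq ι] (T K : Set (ι → ℝ)),
      IsCompact T → Convex ℝ T → IsCompact K → Convex ℝ K → T ⊆ K → 0 < vol T →
      (∀ u, shadow T u ≤ shadow K u) ∧ projBody T ⊆ projBody K ∧
      pettyRatio T * (vol T / vol K) ^ (Fintype.card ι - 1) ≤ pettyRatio K) ∧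
    ((∀ n : ℕ, pettyConst n ≤ 2 ^ n) ∧ (∀ n : ℕ, 3 ≤ n → pettyConst n < 2 ^ n)) ∧
    (∀ (ι : Type) [Fintype ι] [DecidableEq ι] (T K : Set (ι → ℝ)),
      PlanarProd T → IsCompact K → Convex ℝ K → T ⊆ K →
      (2:ℝ) ^ Fintype.card ι ≤ pettyRatio T ∧
      (pettyConst (Fintype.card ι) * vol K ^ (Fintype.card ι - 1)
          ≤ 2 ^ Fintype.card ι * vol T ^ (Fintype.card ι - 1) →
        pettyConst (Fintype.card ι) ≤ pettyRatio K)) ∧
    (∀ (A : Set (Fin 2 → ℝ)) (h : ℝ) (K : Set (Fin 2 ⊕ Unit → ℝ)),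
      IsCompact A → Convex ℝ A → 0 < vol A → 0 < h → IsCompact K → Convex ℝ K →
      prodSet A (seg h) ⊆ K → vol K ≤ 1039 / 1000 * (vol A * h) →
      pettyConst 3 < pettyRatio K) := by
  obtain ⟨a0, a1, a2, a3, a4, a5, a6⟩ := Vale.Agent.Results.P237.AllProducts.result
  obtain ⟨-, b1, b2, b3, b4⟩ := Vale.Agent.Results.P237.NearProducts.result
  exact ⟨a0, a1, a2, a3, a4, a5, a6, b1, b2, b3, b4⟩

end Vale.Agent.Results.P237.AUnion
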