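import Vale.Agent.Lib.P237.Cavalieri

/-!
# P237 (Petty's projection-volume conjecture): products in every dimension

For `K ⊆ ℝ^n` (real functions on a finite index type), `shadow K u = vol (K + [0,u]) - vol K`;
for a convex body this is the length of `u` times the volume in dimension `n - 1` of the orthogonal projection
of `K` along `u`, i.e. the support function of the projection body.  `projBody K` is the set with
support function `shadow K`, and `pettyRatio K = vol (projBody K) / vol K ^ (n - 1)`.
`ballVol n` is the volume of the Euclidean unit ball of `ℝ^n` and `pettyConst n` is the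
conjectured minimum of `pettyRatio` in dimension `n`, its value on ellipsoids.

* For a compact convex `K ⊆ ℝ^(m+1)`, an orthogonal matrix `Q` and `h ≥ 0` such that `Q u` is `h`
  times the last basis vector, `shadow K u` is `h` times the volume of the image of `Q K` under
  the projection forgetting the last coordinate: `shadow K u` is the length of `u` times the
  volume of the orthogonal projection of `K` along `u`.
* The constants are submultiplicative, `pettyConst (k + l) ≤ pettyConst k * pettyConst l`,
  strictly as soon as `k, l ≥ 1` and `k + l ≥ 3`.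
* Hence, for compact convex `A ⊆ ℝ^k`, `B ⊆ ℝ^l` of positive volume (`k, l ≥ 1`) that satisfy the
  conjectured inequality, `A × B` satisfies it, strictly if `k + l ≥ 3`.
* Every member of the family `PlanarProd` (the Cartesian products of finitely many segments and
  planar compact convex sets of positive area, in any bracketing) satisfies the conjectured
  inequality, strictly in every dimension at least three.
-/

namespace Vale.Agent.Results.P237.AllProducts

open Vale.Agent.Lib.P237

theorem result :
    (∀ (ι : Type) [Fintype ι] [DecidableEq ι] (K : Set (ι ⊕ Unit → ℝ))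
      (Q : Matrix (ι ⊕ Unit) (ι ⊕ Unit) ℝ) (u : ι ⊕ Unit → ℝ) (h : ℝ),
      IsCompact K → Convex ℝ K → Q.transpose * Q = 1 → 0 ≤ h →
      Q.mulVec u = (Sum.elim (0 : ι → ℝ) (fun _ => h) : ι ⊕ Unit → ℝ) →
      shadow K u = h * vol {x : ι → ℝ | ∃ t : ℝ,
        (Sum.elim x (fun _ => t) : ι ⊕ Unit → ℝ) ∈ (fun y => Q.mulVec y) '' K}) ∧
    (∀ k l : ℕ, pettyConst (k + l) ≤ pettyConst k * pettyConst l) ∧
    (∀ k l : ℕ, 1 ≤ k → 1 ≤ l → 3 ≤ k + l →
      pettyConst (k + l) < pettyConst k * pettyConst l) ∧
    (pettyConst 1 = 2 ∧ pettyConst 2 = 4 ∧ pettyConst 3 = 3 * Real.pi ^ 2 / 4) ∧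
    (∀ n : ℕ, (MeasureTheory.volume
      (Metric.ball (0 : EuclideanSpace ℝ (Fin (n + 1))) 1)).toReal = ballVol (n + 1)) ∧
    (∀ (ι κ : Type) [Fintype ι] [Fintype κ] [Nonempty ι] [Nonempty κ]
      (A : Set (ι → ℝ)) (B : Set (κ → ℝ)),
      IsCompact A → Convex ℝ A → 0 < vol A → IsCompact B → Convex ℝ B → 0 < vol B →
      pettyConst (Fintype.card ι) ≤ pettyRatio A →
      pettyConst (Fintype.card κ) ≤ pettyRatio B →
      pettyRatio (prodSet A B) = pettyRatio A * pettyRatio B ∧
      pettyConst (Fintype.card ι + Fintype.card κ) ≤ pettyRatio (prodSet A B) ∧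
      (3 ≤ Fintype.card ι + Fintype.card κ →
        pettyConst (Fintype.card ι + Fintype.card κ) < pettyRatio (prodSet A B))) ∧
    (∀ (ι : Type) [Fintype ι] (K : Set (ι → ℝ)), PlanarProd K →
      IsCompact K ∧ Convex ℝ K ∧ 0 < vol K ∧
      pettyConst (Fintype.card ι) ≤ pettyRatio K ∧
      (3 ≤ Fintype.card ι → pettyConst (Fintype.card ι) < pettyRatio K)) := by
  refine ⟨fun ι _ _ K Q u h hKc hK hQ hh hu => shadow_eq_proj hKc hK hQ hh hu,
    pettyConst_add_le, fun k l hk hl h3 => pettyConst_add_lt hk hl h3,
    ⟨pettyConst_one, pettyConst_two, pettyConst_three⟩, ballVol_eq, ?_, ?_⟩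
  · intro ι κ _ _ _ _ A B hAc hA hα hBc hB hβ h1 h2
    have h := pettyRatio_prod_ge hA hAc hB hBc hα hβ h1 h2
    exact ⟨pettyRatio_prod hA hAc hB hBc hα hβ, h.1, h.2⟩
  · intro ι _ K hK
    exact planarProd_main hK

end Vale.Agent.Results.P237.AllProducts
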