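import Vale.Agent.Lib.P237.Petty

/-!
# P237 (Petty's projection-volume conjecture): Cartesian products

For `K ⊆ ℝ^n` (real functions on a finite index type), `shadow K u = vol (K + [0,u]) - vol K`;
for a convex body this is the length of `u` times the volume in dimension `n - 1` of the orthogonal projection
of `K` along `u`, i.e. the support function of the projection body.  `projBody K` is the set with
support function `shadow K`, and `pettyRatio K = vol (projBody K) / vol K ^ (n - 1)`.

* For compact convex `A ⊆ ℝ^k`, `B ⊆ ℝ^l` of positive volume (`k, l ≥ 1`): the shadow function of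
  `A × B` at the pair `u`, `v` is `vol B * shadow A u + vol A * shadow B v`; the projection body of
  `A × B` is the product of the projection bodies of `A` and `B` scaled by `vol B` and `vol A`;
  `pettyRatio (A × B) = pettyRatio A * pettyRatio B`; and `A × B` is again compact, convex, of
  positive volume.
* `pettyRatio = 2` for every segment, and `pettyRatio ≥ 4` for every planar compact convex set of
  positive area.
* Hence `pettyRatio ≥ 8 > 3 π² / 4` for every prism over a planar convex body in `ℝ^3`, and
  `pettyRatio ≥ 16 > 1024 / 81` for every product of two planar convex bodies in `ℝ^4`; the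
  right-hand sides are the values for ellipsoids.
-/

namespace Vale.Agent.Results.P237.Products

open Vale.Agent.Lib.P237
open scoped Pointwise

theorem result :
    (∀ (ι κ : Type) [Fintype ι] [Fintype κ] [Nonempty ι] [Nonempty κ]
      (A : Set (ι → ℝ)) (B : Set (κ → ℝ)),
      IsCompact A → Convex ℝ A → 0 < vol A → IsCompact B → Convex ℝ B → 0 < vol B →
      (∀ (u : ι → ℝ) (v : κ → ℝ),
        shadow (prodSet A B) (Sum.elim u v) = vol B * shadow A u + vol A * shadow B v) ∧
      projBody (prodSet A B) = prodSet (vol B • projBody A) (vol A • projBody B) ∧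
      pettyRatio (prodSet A B) = pettyRatio A * pettyRatio B ∧
      IsCompact (prodSet A B) ∧ Convex ℝ (prodSet A B) ∧ 0 < vol (prodSet A B)) ∧
    (∀ h : ℝ, 0 < h → pettyRatio (seg h) = 2) ∧
    (∀ A : Set (Fin 2 → ℝ), IsCompact A → Convex ℝ A → 0 < vol A → 4 ≤ pettyRatio A) ∧
    (∀ (A : Set (Fin 2 → ℝ)) (h : ℝ), IsCompact A → Convex ℝ A → 0 < vol A → 0 < h →
      8 ≤ pettyRatio (prodSet A (seg h)) ∧ 3 * Real.pi ^ 2 / 4 < 8) ∧
    (∀ A B : Set (Fin 2 → ℝ), IsCompact A → Convex ℝ A → 0 < vol A →
      IsCompact B → Convex ℝ B → 0 < vol B →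
      16 ≤ pettyRatio (prodSet A B) ∧ (1024 / 81 : ℝ) < 16) := by
  have hsegc : ∀ h : ℝ, IsCompact (seg h) := by
    intro h
    have hcl : IsClosed (seg h) := by
      have h1 : IsClosed {x : Unit → ℝ | 0 ≤ x ()} :=
        isClosed_le continuous_const (continuous_apply ())
      have h2 : IsClosed {x : Unit → ℝ | x () ≤ h} :=
        isClosed_le (continuous_apply ()) continuous_const
      exact h1.inter h2
    have hb : Bornology.IsBounded (seg h) := by
      refine isBounded_iff_forall_norm_le.2 ⟨max h 0, ?_⟩
      rintro x ⟨hx0, hx1⟩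
      refine (pi_norm_le_iff_of_nonneg (le_max_right _ _)).2 fun t => ?_
      rw [Real.norm_eq_abs, abs_of_nonneg hx0]
      exact hx1.trans (le_max_left _ _)
    exact Metric.isCompact_of_isClosed_isBounded hcl hb
  have hsegv : ∀ h : ℝ, Convex ℝ (seg h) := by
    intro h x hx y hy a b ha hb hab
    have e : (a • x + b • y) () = a * x () + b * y () := by simp
    constructor
    · show 0 ≤ (a • x + b • y) ()
      rw [e]
      exact add_nonneg (mul_nonneg ha hx.1) (mul_nonneg hb hy.1)
    · show (a • x + b • y) () ≤ h
      rw [e]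
      calc a * x () + b * y () ≤ a * h + b * h :=
            add_le_add (mul_le_mul_of_nonneg_left hx.2 ha) (mul_le_mul_of_nonneg_left hy.2 hb)
        _ = h := by rw [← add_mul, hab, one_mul]
  refine ⟨?_, fun h hh => pettyRatio_seg hh.le, fun A hAc hA hα => pettyRatio_planar hA hAc hα,
    ?_, ?_⟩
  · intro ι κ _ _ _ _ A B hAc hA hα hBc hB hβ
    refine ⟨fun u v => shadow_prod hA hAc hB hBc u v, projBody_prod hA hAc hB hBc hα hβ,
      pettyRatio_prod hA hAc hB hBc hα hβ, isCompact_prodSet hAc hBc, convex_prodSet hA hB, ?_⟩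
    rw [vol_prodSet]
    exact mul_pos hα hβ
  · intro A h hAc hA hα hh
    have hβ : 0 < vol (seg h) := by rw [vol_seg hh.le]; exact hh
    have h1 := pettyRatio_prod hA hAc (hsegv h) (hsegc h) hα hβ
    have h2 := pettyRatio_planar hA hAc hα
    rw [pettyRatio_seg hh.le] at h1
    refine ⟨by rw [h1]; linarith, ?_⟩
    nlinarith [Real.pi_lt_d2, Real.pi_pos]
  · intro A B hAc hA hα hBc hB hβ
    have h1 := pettyRatio_prod hA hAc hB hBc hα hβ
    have h2 := pettyRatio_planar hA hAc hα
    have h3 := pettyRatio_planar hB hBc hβ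
    refine ⟨?_, by norm_num⟩
    rw [h1]
    nlinarith

end Vale.Agent.Results.P237.Products
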